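import Vale.Agent.Lib.P038.SatK.Sound
noncomputable section
namespace Vale.Agent.Lib.P038.SatK
def sh_1_0_0_f : Shape := ⟨1, 0, 0, false, 1013, 0, 992459841243950855114253555700393711751419442173583523790370130190601177043795931812670080532674934358532261279515810771137302951552106508151012600426777191130710009489301612189653122588386844179305944824189016207957622831486101925908716896103811570635655036119248169053240797439437938017386053575838499500592350086931171629926137793074382172904751104⟩
theorem sh_1_0_0_f_chk : sh_1_0_0_f.chk = true := by decide +kernel
end Vale.Agent.Lib.P038.SatK
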