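import Vale.Agent.Lib.P038.SatK.Sound
noncomputable section
namespace Vale.Agent.Lib.P038.SatK
def sh_2_0_0_f : Shape := ⟨2, 0, 0, false, 1016, 40895698761543002700720226329, 16545240170291769828536469148776999615921801241083598643773141710938001091903052457383681601840104801568734511549194971922777263750304883923662026564697587454682180709173003260367333306643069685963416077384373924001291368163633606912473533109177638062143722974100180890145684375407974036878110331643816384849828599488321723933144569974372256282903750612300835426203552269114735564262495617809279721552130571273387476720823221202106960436858658816⟩
theorem sh_2_0_0_f_chk : sh_2_0_0_f.chk = true := by decide +kernel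
end Vale.Agent.Lib.P038.SatK
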