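import Vale.Agent.Lib.P038.SatK.Sound
noncomputable section
namespace Vale.Agent.Lib.P038.SatK
def sh_2_1_0_f : Shape := ⟨2, 1, 0, false, 1030, 39113877515363870815674717725550067592140099516036995614920979846211045281968646916647210649015531332384672230656518559739869795802448637919050740072622145448495023103623193, 136893261257426781507164451553976271458266598782060840553569699209071461655831335293849739950345072825508599896934285340624207832656017618792062953197055998520870421718129508466964107932672238347375195397438516383992460464006830607201855762475281774829818489526447302245322875496497185348901147235859536954571819972570764150845427601770615678643194777911986970174526443519770764985170475070879845695262430544539993757137021322973319605929528787148800⟩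
theorem sh_2_1_0_f_chk : sh_2_1_0_f.chk = true := by decide +kernel
end Vale.Agent.Lib.P038.SatK
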