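import Vale.Agent.Lib.P038.SatK.Sound
noncomputable section
namespace Vale.Agent.Lib.P038.SatK
def sh_3_0_0_f : Shape := ⟨3, 0, 0, false, 1024, 469673054694352422583524752061023326071911953530709346506801264907117276053594498651584727393050135338317725721, 16610571819532803470505023814714914718057721482904264383728810582452070197892797975478124703012816856535957769309192555491508769783897435935949780331225640752294837161713298692665248089972258512036258567986481233743780555520259772699430249881995542171989681072034103700341700260058096104110672633400444946769697357263955437886943908370156645703965519290926154881315134239412239478410401819842513760375745312611339003400054976581584323346977169408⟩
theorem sh_3_0_0_f_chk : sh_3_0_0_f.chk = true := by decide +kernel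
end Vale.Agent.Lib.P038.SatK
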