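import Vale.Agent.Lib.P038.SatK.Sound
noncomputable section
namespace Vale.Agent.Lib.P038.SatK
def sh_3_1_0_f : Shape := ⟨3, 1, 0, false, 1043, 488104996652931104798135624246426376484576432733445747830664106064756320546978591117375043610015440140078140029193332098160694060673790972240831762257584125284496381717015267873836118584515354767071752958493920468389080069175816874755372362440688834515810398050948657891932891574829546810510450799832940569, 137829970125287053890289005344299385264842723109229585388837845433402543387370995463920415672944404987261660530030641300120469277487907813876050894659307648912311537969717118567228476429041254243119594694551784650753033091897532557311665807613645957330959714146405182469500336705118086720356270428388506313690690940988841508350119833004382688752250532714067402662815999314618988137880420956061036614869084960831631751124429652867266046481575406641152⟩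
theorem sh_3_1_0_f_chk : sh_3_1_0_f.chk = true := by decide +kernel
end Vale.Agent.Lib.P038.SatK
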