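import Vale.Agent.Lib.P038.SatK.Sound
noncomputable section
namespace Vale.Agent.Lib.P038.SatK
def sh_3_2_0_f : Shape := ⟨3, 2, 0, false, 1060, 526313158725462336303156601372813743504562656800092701572446148867495541537773658051596346849330045993696857203952791658593050916051716116909509810703195998758221624428187679650298609625508453350155383918829770624791593433553857242815136477737740226236900679391300176738028131258431014611714553642640588446543105280960145015974334694862261310921345095553187997162380965131581612394282725632639059037570072763160783128359963695308933623112314065974010874269155437732816085038874649, 139703306190717140690056682972802030436997769286737856543635194327315194664092980190146037679868636079705081897099933272999603099116775380816743737167582342691162121305887604515661982418969757194451093691778479436156331455558718994624808945395818551430740774292891709966045928153313790419536725055755224059970243016585094873714830184747819187820883923150857674994044837650773383438156948793644967553368036970020848663113658370029307596318381686300672⟩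
theorem sh_3_2_0_f_chk : sh_3_2_0_f.chk = true := by decide +kernel
end Vale.Agent.Lib.P038.SatK
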