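import Vale.Agent.Lib.P038.SatK.Sound
noncomputable section
namespace Vale.Agent.Lib.P038.SatK
def sh_4_0_0_f : Shape := ⟨4, 0, 0, false, 1036, 409987596311641206365192027951831384436288206531338890221631650635524447920317163896375165508544890293650260515994352876241973876488319654257401635437525837019516692994883692443431313140241541285003599778783752244812742106189962371098, 16708569293394353933457855813621787371261601845635262993662313889723173856877416253733409344883688234596591772897797961597301876253063386234723187953747840850445495610353971377015153589910663824380277697325999888848265055377955032096775914261131613539141425843966247364382018716725574464942367288241907499426566956500870584819870986663678678020105321242815927409752927323069549276454058924739476182611062884734734639086306055540896075407217836032⟩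
theorem sh_4_0_0_f_chk : sh_4_0_0_f.chk = true := by decide +kernel
end Vale.Agent.Lib.P038.SatK
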