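import Vale.Agent.Lib.P038.SatK.Sound
noncomputable section
namespace Vale.Agent.Lib.P038.SatK
def sh_4_1_0_f : Shape := ⟨4, 1, 0, false, 1060, 526318459058542281634327162354877591066118878662951842125302856929258015607103356866630962141522502609539469141233399837675822275092896539051391075337284885208270559783356744281374570533045422134006856614799168215255924104779147210641884707015903069535688075867567461290847774232959886055827187542870147678880539179552523805339279082303233445127318087167479645980722432562272821794712183338751428628961073272808374094083886826627848160969406899205660073982896611508208617776177178, 139034310098250261248508972909386154946699284445600139304283940440088821458490601231087435475027264146859194679752224504186588323713201207098730073225576332847557880148438850044705609865243517681084226791325079242705952286758391247489043205462990408016862454014660866387182739481672836416353271151611345035620579194249554533201502610338791151382716704385588717884455935699690567918506922687790071452913935354129097325460795134661188720584209834360832⟩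
theorem sh_4_1_0_f_chk : sh_4_1_0_f.chk = true := by decide +kernel
end Vale.Agent.Lib.P038.SatK
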