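import Vale.Agent.Lib.P038.SatK.Sound
noncomputable section
namespace Vale.Agent.Lib.P038.SatK
def sh_4_2_0_f : Shape := ⟨4, 2, 0, false, 1080, 2858069915295054075847573627192157420622447446693681315939960566905799244761722792035010244682373611009328025011097633684929142893595867927878950412448411279662342031109536271516352408601174041985244113459375995608783953425224640398212534908276579789735083256523498918582663578573761996984564138558346333285157435513943188390693916846489857580526887265530018602312446430593762522155104422745775425861050811784587468640977114781046466307879025443779832389661046395658916830217056772963125166399024062494510321990072637441154919394725725787741673625764478752455061320991339288192628624502320735662746202679257856135302932679611174797374619805384806279066068917168363264234008179472818202, 141175277268785960196322160975174934254008603979345039339689035764003609371137045196448598585923070961181120535188391029340244913702904014292089298902587978548557067690818836605645161474028613571593351279459358940223582078531041969521375013927864935649886308092653723231757459039241084516452454189028330319768729757340824024367272683642118148026873602729856306074294258746335332644490131448332632232912666678412548577288610277475468495847771414118400⟩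
theorem sh_4_2_0_f_chk : sh_4_2_0_f.chk = true := by decide +kernel
end Vale.Agent.Lib.P038.SatK
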