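import Vale.Agent.Lib.P038.SatK.Sound
noncomputable section
namespace Vale.Agent.Lib.P038.SatK
def sh_4_3_0_f : Shape := ⟨4, 3, 0, false, 1101, 265086227092238898704937177483396607424263510333851653560868130097986855514410747054722924154384547969027416256116162687057690019214391659250225575152246160264305813817666169327186534460021408149135773777784379499926229889334221628613576140919297819216226404578633398393805052058625659924579381950275687080330931104110733976677454782050747683925366157960650209628743473417421773130033804076845724912449645367209124716473137233126875330238131608526987751225846803890355469216349170019316960670876485660898491363686968628966703926826714181643227058100456343381294782587814578442378139669472035967264432601157226566722891604342678502800971667761809357304512735948952206832304480600121080494731465633845977020016333935766754461844338638767243437792746448417802189837521272883650011075598092468530038046084149049935549310558484478235216348520156385970682480399635650987503894038384416320520386121381928986, 143450076326527546342529176279366515448362818913682220124935509110568295901216200280789149514774269809545327720325852736580649214970359551572208959334514014086636740149805204862832910474020523047310209197911923642956230413687680764714245453652069971518096431970081469096130338241140859309975496357694670376890278014270703677023925907421085658099376600413294044787669884851018984330222653321332759704765059437317952599627898833734475637167420111503360⟩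
theorem sh_4_3_0_f_chk : sh_4_3_0_f.chk = true := by decide +kernel
end Vale.Agent.Lib.P038.SatK
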