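import Vale.Agent.Lib.P038.SatK.Sound
noncomputable section
namespace Vale.Agent.Lib.P038.SatK
def sh_5_0_0_f : Shape := ⟨5, 0, 0, false, 1052, 29342583259713643389216694288160352210977243746893090882626876789602148108436835421320360064850649298477153762120066491620841323732866037820338665927377286573855373420723855775633924581745346817383562814735386426136807635863728869984859583712865305280619107260269408720025755023634270760494406025424447030164519073117014026990916804654504878359285450742903417239377953020859435453547088381217030169, 16839232591876421217394965145497617575533442329276594473573651632751312068856916555405359310462307357731821248547805996202253889226953773540322221082341985331262991516797359316877846970002265596215733183874859167211212888376966104870964112651306524704469949008875953971996870090766544103227150823323862799135759091647241754350107067545366667164591186301036589753854847864643179942947390743448345083734826990018209383555726239432862693287010426880⟩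
theorem sh_5_0_0_f_chk : sh_5_0_0_f.chk = true := by decide +kernel
end Vale.Agent.Lib.P038.SatK
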