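import Vale.Agent.Lib.P038.SatK.Sound
noncomputable section
namespace Vale.Agent.Lib.P038.SatK
def sh_5_1_0_f : Shape := ⟨5, 1, 0, false, 1081, 49101724112914517194005113764501643349719476664030110461977926354033238270794770947661868571237640252372922306996787137401863598669716042175863571915585637673649162011639365001714643838268651142189564733539234815973196999106874095646054992519659476984272019189747843508944860764984042743859112080287474288745363939564057917419334018317214457031037500814696503609571385460082910716291420101928509213874486977494136569739303404531586403603363721394336060107566360947555653580676695481772244802790217650157489119690059516022634091567295838184152914341930739038118679929180294532028326392292838297658211933210330453878397564641911133601424914222832011581087610528381670295641195032152264878028177433, 140506281176316403581824354249236580503836282791172502299907984229130295869190152604869666738473469600992473338851040072664099452649232555419715585850460958639098440651081980822008789810296045728249973400231138349456249533878000264399269081973188156013115828455316439773485786007240740758867061085567460301290678143048332416801590406376848099584832193463985677465011469172631209985087926680155375401061826882850965476352564511178103671906261197053952⟩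
theorem sh_5_1_0_f_chk : sh_5_1_0_f.chk = true := by decide +kernel
end Vale.Agent.Lib.P038.SatK
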