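import Vale.Agent.Lib.P038.SatK.Sound
noncomputable section
namespace Vale.Agent.Lib.P038.SatK
def sh_5_2_0_f : Shape := ⟨5, 2, 0, false, 1104, 1344158483009928750249099837690720085357542431031661256156523858746046238595116467138126970532545121806234995915986771659884826153535935123331255722133643293508893126671943018847028863422294563768301253905846391801333046321995721805941842601631886971859719129823416252468790186635765486886125895918727314264032161424806158364993908236837022396261807936498552062958578270698976347685942277903536397250223678939770545496975242855804025684093512245213068501292563955025426512430123002822853383240931290502578608303447447718224280873042273011391824264351451039962091676474495924314948789148068407325805879672498859651718190804211221444315255250360563708707159469180189293231085123319151459011523047934851384236075314616048282074574492677241806487246956478423019104146924831876488228397962995687912268394709711302565297149210144095932539199858893685976768111453792984319612816639098735493362328601596080446187705817091268173302769860633, 142914879451958201436401252145497399084458755016978543906908061918983027744369149199030991853707579472809673554636001654441783851550078023134487190438141488434295012237269721375204376059496418702265832415728242981841215929570923603562312312070362132895068598748808714166636287067115047399326796369714660741559752885967173809484843577523358128883177761658190407171213847651445244203388731379740085197121046843090347622979680029389733040073883537825792⟩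
theorem sh_5_2_0_f_chk : sh_5_2_0_f.chk = true := by decide +kernel
end Vale.Agent.Lib.P038.SatK
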