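import Vale.Agent.Lib.P038.SatK.Sound
noncomputable section
namespace Vale.Agent.Lib.P038.SatK
def sh_5_3_0_f : Shape := ⟨5, 3, 0, false, 1128, 628985729901978010104123272189487375122326298421378743029504637590014932905281492038948109029049433720144179344612548466556304869939607542760777060858409548589215048647343920972412278616348441187945196494863508743891115646171903689189632159056779945497990613285180964658634674030024695332164836398711058294476054887016346408737026489144885625044452892816456558092078627446872878152780320474041798147445036825057870203024601393200363794876904012955332369411969037018514292499351768434756809453292806098787255692391280093081301328002292015055510730776639723707643014914081042535534807911628274665611613242170636273112118796866509230729193955404828917297644069715182570292749380968126404603745179838341436755595046308498157710824297699171123444322108224822317649664828031135405994928413549892049559116412940335944183410701952645349352552377680890577837545710426264578969766952560722559705919348973353578862241016848864971225989022501629890524129986275349073221073696472455688838437834380624650738566470330112866844972049689069555460993167117431747355649922524340723327061759390132385485446471003973751962483116883962760837106360638778086503736817157656883778666610399291426160665, 145457309614803209316421880617638541292252286296342046463319719983838717940636343270140205634451306446292409928320517363069981075300513423779771228171949653903109439855797113850162497630609683724591916907253948331463137306193259646048155941836772524074964522917499879244455090393154211118210962629922091299595517957599218357790993692907539519751330344927203415284687112315179042709375415502719735431826740445222342040283950131782692768423380611162112⟩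
theorem sh_5_3_0_f_chk : sh_5_3_0_f.chk = true := by decide +kernel
end Vale.Agent.Lib.P038.SatK
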