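import Vale.Agent.Lib.P038.SatK.Sound
noncomputable section
namespace Vale.Agent.Lib.P038.SatK
def sh_5_4_0_f : Shape := ⟨5, 4, 0, false, 1154, 86490292867592385065222295745431259436359910447816332946365229067322097236308521833473485473512880344893091896325772649700208733165962337274980310021620191738389389218367510092768156970983687679371720228573654130638636506139208950235787243088314479871469464622610393780660422637436635137083298929917274443607417075826695879797856138312672218460141801291049003844030186893560827689733660052945609836050321893603023230224030587458423903715553611748490559371378478306444497318339258270008240968640574359842205321713987803111830976984014511100210123908011360757830614564865379579786652213406205499280471605413134846874110743486066033491749380217925254943457594254218644295740320127177725404509292420761337576691129251206200364288912463962957234493412437714628559261151572506709311167162292419718305352474418221149120663730521932169895043758801630217752576288041837374292212948661674285759199411358762628205521116889840381893901783885645076215078552869298060048516392199033009723569927433542357645748243266565831492027513181931757922140106437641149906396214119902550416081861373205882781007626064426939806869741761448307789810564094966834289723012659664240879918071478281223311928012249595815788180726934521529062276396545757664436079926600575559972490248431487621339756017590439929195407732427319589706692658594648634172589341695031421186480913292402877948266530053314938890550094756155473048109316556787692744737164939949432266829745559217324057, 148267370882751638930256122257729244513485133920731870790896562766985411803091576327824133314490832449931764548183750186998926949201194644511816463707702351913163098916274526295526206878711337878333524391654195154459558578741560255742229786738197167811821904200235315237084552129616824987834072589245987042691266940796593825760842993649008050728855414166681966178160288466233890627195884431564210314903807028448675835487006870391374492185891864240128⟩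
theorem sh_5_4_0_f_chk : sh_5_4_0_f.chk = true := by decide +kernel
end Vale.Agent.Lib.P038.SatK
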