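import Vale.Agent.Lib.P038.SatK.Sound
noncomputable section
namespace Vale.Agent.Lib.P038.SatK
def sh_6_0_0_f : Shape := ⟨6, 0, 0, false, 1072, 175969145089208929543542949126361680092774945518285897776114076000736882623702175655323280589790444768571165322701615422058228833402714804355928987359284221686040059426588631644952450645472558570966924863817768603921758791083850542602275950867484082590677678203785685033629908386143427697230902569833654971810631439016155049238517146993762660301933685638987220697315875180601220642768831785791709404604578741882120749998267762745102175514686977603893569158819157235949423223967265726601104144598300127520934103439428488270317504532007655245460883957262628363211634708763348894109844076654313200536469529, 17002561714979005322316351810342405330873242933828258823462823811536484833908627607297264172162826152955963651343151472325877902876714433105908870791038260447920384410218477059495413195367601463186731490332236066931639679089744320790891159616088196770292012955389100194217005199632635203573320760426291515336885118553344839655326484514980904742407494646052161925821491500590537635363790913682669468843849074500878643874593023768291966542485061632⟩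
theorem sh_6_0_0_f_chk : sh_6_0_0_f.chk = true := by decide +kernel
end Vale.Agent.Lib.P038.SatK
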