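import Vale.Agent.Lib.P038.SatK.Sound
noncomputable section
namespace Vale.Agent.Lib.P038.SatK
def sh_6_1_0_f : Shape := ⟨6, 1, 0, false, 1106, 396728990712768948816764011156031250955895909282230634897256790953857477140917238493496438341899720820578720291016913033123334969659817540926263715520499868493573471570058339015665473693984254053386690898625730794736639116956552000502467502306166481589192111318625199494773227431976884005116792183056137060163438964496252373113150620820995287155089989764454276397473983406938354623369476288985188145870242301266288862708431822319422049122762898945869691470505269938022078037456042005182156745386669440224194836580224348324961735743503868172495706717685505584946897964027237627505923597843050375363233809588739639535397720068088266670922845742483530372525123215223823926072139435848710152654062390074103619533420408601606230138271532128680227400233115420741248433419887251572594892581419933325664625734909966434710473891288216526186008727680226458005824791173781349727181277385011132935990142527457007059771674611781480443540555292502162121210063962137, 142245883359485480890235149363850661936253718145946674375709976800526966619469729368973329737061597522805554044482565251153714799379912036387446727862849888672614106825110819285906302918813051143959361481556383449204023736869439726338576585485260315778750862579699602252105442813555390809015823399263839573139028433391738579569665366585189651033340749370757611446147994571264216717866912480103213938867638825684842367921704326992461078463338302603264⟩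
theorem sh_6_1_0_f_chk : sh_6_1_0_f.chk = true := by decide +kernel
end Vale.Agent.Lib.P038.SatK
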