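import Vale.Agent.Lib.P038.SatK.Sound
noncomputable section
namespace Vale.Agent.Lib.P038.SatK
def sh_6_2_0_f : Shape := ⟨6, 2, 0, false, 1132, 54792827282088842477858437881153425506312839103564715360715960719233950911640021443338639229047524865121313282055803837684400141869909112229575020770430016793825932143241901032375069243654926189230966632558078834641188322287164715281691979046531658757698548726985202124182500774388248494332659673242441856950773161403532863705398944764119900491991234054639956297730802726081810745356623223351326208170154036697842482105787562811943707132425966404702232243659930919303304695590320739338115113602123532606810539830252564469723152285435556755484235383659321989848313085388453058626623781802826447618588573814901012993815730824523603539853630620415223341076389866383923830006404194187391502278478370613722734723241477231698490321734474051769076557202289107471485373545789097722085507023205361676022837730015245091177682441266835671168507773231348372715070608068635265482609295412336319761360723617208014033268400435463032354482074503095440697962223814543470224844714487655302558186914768381167696616400111989624318786734425989251608334486326325249910322597180745149092273507944354377733723567978801577225031792139775774110939722443198088562523865447711252972076971272941557050684043598806742038432120983737438584554340377, 144922112740233864410293956483769424928348222399638370245292272792253449783789373858919527926347731401204759975334660383297292198387048398732187209393873189504985634824218390737755846399744836921545810975145126635226440126165301152276017214713615869618756796394678706761894086920949888941221990904633831965435418501991661666545384963951499059208606876568711855479209826014122212165545695602886445230919848298801161225703938287648316687236825777897472⟩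
theorem sh_6_2_0_f_chk : sh_6_2_0_f.chk = true := by decide +kernel
end Vale.Agent.Lib.P038.SatK
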