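import Vale.Agent.Lib.P038.SatK.Sound
noncomputable section
namespace Vale.Agent.Lib.P038.SatK
def sh_6_3_0_f : Shape := ⟨6, 3, 0, false, 1159, 129440422244647979442016564632279097075389941647374488796244477860029901609943097796798116334600006019102990585531542973727488115413253740453100603872892428753872860533693064061122118584102299142992614774361160860536354899729710260202589164425720740194312448084452107267885300118263824974350092884960264621311742936343323319439987066670542499347889608038613645127696251949091076357886031225403618883189217096012636278010916761904115126648186523603831959023783852588124702711192039150929126956883314803434189101332862049967977551078108516265895040059612849678933572379162188002238659766654599662441844863132184405386467782180103801924565520306251550608627296710528645261679241061142025470477786616107201304589067488257639208735309896548177768332182094743060122159066964195847195744007530126064737041961420886601668541996130111742338609473986671652034246357742802342347848478429928976908595614916979167435870616032182184266780444532454804703799775565157783941699956877867608116036078375025060227092313755505848056156019111410163507671527427168281667654141335203271930802464585664322064763190094898632464019491668658761014207966814330471411658022695147483372740661084262547565354365789511783413870799803686296690561499997092166611629424907260714421770630426286308565757709967225920864734602856313436382248553435020846808095947696201586329317027510366744881927255480299880267877662292203296326559561027535552960099600417061901470715091216372750501873048785202911987309368217690633166272189337649177,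 147732174008182294024128198123860128149581070024028194572869115575400143646244608866530961567974900134630927176935430128898980419717121823570089468305717561302873092205307187146265571167650912589203884275244005807204721931289753653384222965411740221823744088024937234541400870948681782057431154519472070742511820170863797252941857293610349908369540710800662147364340476138922791663578295142367142548655455060275706565395771688827189396701617833574400⟩
theorem sh_6_3_0_f_chk : sh_6_3_0_f.chk = true := by decide +kernel
end Vale.Agent.Lib.P038.SatK
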