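import Vale.Agent.Lib.P038.SatK.Sound
noncomputable section
namespace Vale.Agent.Lib.P038.SatK
def sh_6_4_0_f : Shape := ⟨6, 4, 0, false, 1188, 89904549862971864923403300966860292173205476504026861405859160481024502675166994637248023059537498589041087051286509834176508741916646652468276114334873020583670713453502823589251249989592879828197945509639692885865639475522959456834571250240315585878788370706994439170645001161474186677519945636583408415966400891135284665788481755208996610242379796955142490465901086743613625962986925957552661718147051075693547945504677321321674073751558666387573375684544772823841754313500341966322813962405341253594825032854217264684854174394829573435642125385089263219234139713249078017056311842426666130887623310698570280130550938095103120660453500857698949854607190528143037919140786790300198132542622310724465782331673338680532292884882289344877868007143898942324390347609357755620471004471976873502518962067061741295202282120187774083246939364479912576020165456491601824671569540542642224361247513731706881726566658196818439113537411588055897325529180656619472303908364614174333325712016640232509688297931872024192704356219418363683358788191342267997201115238191452951038484703782172600473553442796400713219421218836873843845470660160674504045815236967781529613163546015476735763831073757277881267403122055112814836842221372551885355726029796591278159198085546516080410236928880260515883577831840212419432652024252572923407691063484933591253816809825638753650293801665296682602637448979478245267522546926129651935163160431440850448540473296987742604234748249338949387990143549392745944103937509078465026231505636497553556320370917430998891465921274705571597909120639545798812795510739404021145604554600145388129076157419930971140092141899082827019484923195907874206174352318250169634063848620018653454562478098327934899836906770948167159006204359194247214166199284117455015899435049945907427754009,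 150809866381234145371776052931900392384253233993444340671611143076837841174887883005156183624571026618938661704843623428443842650266284935465557148976167934820290363596123431487298086390622703965153846944891437902780916329363999144784632494512018167454776134888769097324709375000088386980010223430815791218253061916695851809345472741624981749328483575963157433824620304903701424877185759276528445076748888541800192179464100168310215072687908368351232⟩
theorem sh_6_4_0_f_chk : sh_6_4_0_f.chk = true := by decide +kernel
end Vale.Agent.Lib.P038.SatK
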