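import Vale.Agent.Lib.P038.SatK.Sound
noncomputable section
namespace Vale.Agent.Lib.P038.SatK
def sh_6_5_0_f : Shape := ⟨6, 5, 0, false, 1219, 18367461349145127278974384899312838842184445710850170478005084762215313227078635982778260130596598072256013811608891083696368957730052695103817762409655503583998372940447349098731168313291035776769102415658446384541312326731099411792457760037194798147730690216480098985351336497969688305091317727549205716903659707632863722744554664452684975674998444400355850372388338279496897930460829195783989174813209594945059775110782481497944011083533183776643865411845450523629812260170389697479769284274572514082152935582837325216272661832737917462627405192463706800276204074017073168578820153035279847692837108625339914414181415896899833753585869012030847843314121279957439179956625968009725591929651571100765250924753831315933783089011492623566781258340186011650373874689902993099031273451277932959969401146276846373565819887911760824728394954716050685788307258754155251265316965678215677130399875996845636567829135745400626818474946964277663952877939081847379383684142867440352114838967903069374727875128591145591861665766519409258666295471564298209516657013072525429679108146278344118029975950319832350847515419996771633947150152431968491593057771075158237400813307037591373757217997906631183968010598616499280590045504711418949001492046504091903524035832237087894984312862591324616058522057090695646726203216668955209921563471071451286596966943242965101117105100753418164979485069727126501382791952423664264676066855964977231043539458207981353891934723858596503675019110010717982153039311267325010421598921992740586712581770143831095588966001871248829080490599650755172314718931666098666468021341565332843992950173271539225232765842161658019234297096390004875441986071892849718092131143738396584653266024414317828195299893643533092172622364705444143993584915366696250609803688239931370235691934360042218835436057333479168093050375086485164359603737118655212958885761360211402579433503013909976132641029108790065238727140402727841920084462175380338930269721817145786297532305791535666108125385193514453634287489734008420067019073851322247026412454758054518375063015181820865371309996097085946219108557470807834649,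 154155189859389418453237520907890217632364714307886808541518355296566542369719196274795194096136110854127963559059240281931878890034537734418590275422739538500668303197475256143857705015556729882256244347284902249543684648943397711489540208363078870811734610141146540886724561073484316724952800443615990341815497633640646175361948835820475394008290980533093679080402236461290520917648170193273350792584373690612352836560823420251409663536894547263488⟩
theorem sh_6_5_0_f_chk : sh_6_5_0_f.chk = true := by decide +kernel
end Vale.Agent.Lib.P038.SatK
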