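import Vale.Agent.Lib.P038.SatK.Sound
noncomputable section
namespace Vale.Agent.Lib.P038.SatK
def sh_6_5_0_t : Shape := ⟨6, 5, 0, true, 1253, 110638373818263779123025142686541986640125371817649646256643762872466442623973016229374563237476780588897880388439805656447218894823304983412371152950693853301246779883503807454279417918388046404003244023544699520364669930270370306822082919242059061301139604832426845607464586201157397706506215943254742056371776750231165152582340362879793178888466278883010655849738515957169110181151088822363640110412966577081004877187785626808845886092842001135869871777537677608691032000521789266896827187530831217694751654432019995175644471210907146588910456200455651254340517411266046364731302549873508120054618721687893114862402790337172534893788225613331049477607815121011813534842369268288894946763290307051565940366087275346642835704094201089238114267690200876266909458778476914790144005391829557502923432053521425366285704704621095363579409889940908507819380415652423799258624715673557417944592440853611462413886891720025692666399777416094102730680231904273087729907512237170409739358287373693365197350422170537333815702878129015707816186141941734416402945971287782504583978365555249073905987245790141845135287704235521361522840611701189255527730890043689864624518365899182218865116370018491110582671939792444683099107855912216238213475587478536459600381294954643618805397539610692983605528599937829627843776434167459008693464575694742429923253078620266041182056746590906158156424933776614645176674062218011842425907643223515030846252268893420306738016384419697604633602820779825390346737705447294061141982995921031242026917831833081133086738475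13504224262573156533422095762960940469953287610905425646442285322572231233604379402119974315217576852692286388255116546420732465903953769183973988217727727048429007983408692671367372413740849108015473476334035351123973064118776480468031451794882325466639446559890566270472702268278905850590210295916895666332417718476902968855962179465513998829909279717851628423511680604047049686364653760953550255113067771764617067475687117231838129904998744996615884807328169372285623633413501238967020456297933080008400903872661009104734614935519692733035240307027875163014706704547269071948140897461588554783809084058041712091853265743542656049597792158455120183107031110576322337537995291175754303250675002179215790763039920978881793838802659179185132068033740045843222615411732890942980763088790248555836796632832696287072857611139318158913008692527659132859897439985655536664288797050284261669057825166614040009387431075987481, 152817116008403896521740986691776827298291798508638668663930770367544848612067845401972678710442157766477237140959594342901852745402191474084328397438737088207850466073824377453970270453416900452137042200265650607686330810879921563273665884880584988494439871674690965073978141415761143106325528423529849020256010283223472308722823000754865178673126996990800760785507605340564610889653854887881743033933811117294267869128185781023688342331559080034304⟩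
theorem sh_6_5_0_t_chk : sh_6_5_0_t.chk = true := by decide +kernel
end Vale.Agent.Lib.P038.SatK
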