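import Vale.Agent.Lib.P038.SatK.Sound
noncomputable section
namespace Vale.Agent.Lib.P038.SatK
def sh_6_5_1_t : Shape := ⟨6, 5, 1, true, 1286, 1080738636728619151034555483903724415289399664277358383597610159368727976076334738249526041608568611228905202620871767788888742183863765046123233664772839385585261775994246767414488746481513318018812375483245018213106961041057129346713754571411276110207702179187251634186691790154088993249983642626795238992166611371597114330800386424952475397225401417864007764703876847161693651465497495376701663710345166113790941813556413439552909524944477794999863264225227189531616029731330275466123999801591176595205592997648363805638121438976783367563656162517972887037102723204259612266871570987840899989764242315270554093911135696274227206093441321737541259859810023771818759883032345638833091890048377879697068381476602089216840613411473106568449626685862858111668055402492542166736554382597228317255252329935085532529014454748311711852071666412407037729501742289081677030406709005793528943833253511820207121068836046505380092295606014047982248630519056235493362051498779396903325155408248505607790686242857445147004509125601867494933234685337812978801961720841235560056673538994759098051709166786644156368480713680214931252782855646538660461764081309703013851328606117576855020931815804987067274055986320035884505213579886967501030788130191995375825547713387032592045364253756571737945381989552315402721965952777513876505134579701957943767918241575974405267730281732135022799007361398938261743212103830140334186618459900158150377828287164055273282081622275498415728566099762448925812570328708954999229010895982253443191528435241723301300897028143450738803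537311633580517375593226240163641248617526186898164667076833004819362446650872206560756351493811678817741937512607633230257885691912726232238953006817427027556278468664760810008560026871859542794971833131657049837963775013728701699017791691134771131199373289304957441339981714557514375769874986199423293942434930050768287210369784950549467062122177798534473029761168129968558370118253166701841475190489710666692399815511285817571733267022726357327203839417497657034706632532852959747848548523603702143366484141539458351589639760661392105779445573019362036495398253567736811332570835307139746511929645165582776635222516445118870379521058032586637041228176999920930439191093077953805747695795607136351043357197555807089859103283973287318552823568417001743451591106499155354466005283772453236955056468108657377446435338034518219548402798302556220623441847759081241555724638279766065296323997703084937247626945103700368415613095194233676867731862667250218785441073096168095854103593116333625160743405077152016162355076674810364969110105128598499947720436081476559978100721567262060238351966518718276908183550236827395391672536608623073919760856153943729063607603581132240044135126685373430207140963727883590666268132726022391950725897526911445450777, 155091980401782981259156698619348095912525987441362403718834928409313396134166999636625707072800047034591224647062036876106047333742606027323333845203199083102919725522323009924084871678879047087897668630878675018790668760360131733986503178663659013334469358116028785504627321395284223221102186549188502931567970403508731181879795631666553945342989586691344906091516225094379400948039563049362623748207835261808593521135285490896283761185665813774336⟩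
theorem sh_6_5_1_t_chk : sh_6_5_1_t.chk = true := by decide +kernel
end Vale.Agent.Lib.P038.SatK
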