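import Vale.Agent.Lib.P038.SatK.Sound
noncomputable section
namespace Vale.Agent.Lib.P038.SatK
def sh_6_5_2_t : Shape := ⟨6, 5, 2, true, 1316, 1277773035534966459995939939934824580743699644252077001662906105770038183359539313289125629877779645683976510480018656985723977962838536370224087794328750187109522146175103640357875394462546079153991473643171009601254762711331656515027965924048719575984182829959612720670471639081815579200299278900903580798712933739259457518398040516216188951655590941774157712723797075429758652079400453300780624619854334293984481459215445747169406763611211520038624142309087767419260670581308697877211770999654116297036818991216586406419752286798115835499136648289491893315969987924206004737458882553177896995629860456700317719664543842264123370058125225712222037032009596492707866250114715336077123836677267983122619962119699146977144770100839632296469041018106998381004951123565832296718738272136644344024313424563158359150511048836699292322385978022750900855126651024342531828085639147123064247625694308690855147046965455499350612944036907543453835211249311603415676718231837350179833449446443456761229241314213406865195304720212828242649511270727829423797487560720879137455812363806039039199118765877332787550812508061675460727702965814545779933896329130880524690940252406476874584546691824143908836153707309939584381815626750812152141582506933410164541792801923161269728831297258640019367671158960361886586202133410304654411891808191865889409034847040228927403258001412289404824746099213513071490870275292754762504730008310041396107380090544657905339389364892379244863411267771172147469341654954391198880349242641511869541012375286420308824033785420035152955391816681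8687577970530062816797295084567393395670989255499571512224739238371387285631462903769940404079307733501681504870354072968739548798499468792467761508080603574376047195440552350791690539976472904344583214069662739090022856848417959950348649581812549080001134183517040111279408909067440474775628720306919001209700309434770308985379587461989732505067227310600191724868461623163614981401379407230123179034424282533462402008624104068509746108820088394853074302506162639207754909598951352431838824154435706455386010012473268334606588710832340814585743093278227097104948134644725711908500714281806936564299029757174808230709036872101380988037952655309172755888614381115724005865153688913323026500209892552602717951295703449865958176888442712673031281082171984373196639321308186956762078955911889453731093382606152656499994820222386180290952143864142704184446599223598921373120712677048669385595608902377440636831158425810514548162853485300607113776970068989321240632597780729677351510953874702146952750143140640444648297300112196412735718022683753532489218239603524581390822844652524415061650063000302049957973337255311818209642012043003525833065641112920911741391155874685815617470120925557822766493764716925164989959952324741965237562244173438959856153391778107528840769375647286653210734400214260181871938237300947589430888772413262515746032582631025791725633415031245915146505067341577437475301360756981300616426532902860688209552917543426950572935314827583428918267348950119721348525616128183419533528314598451562421432526644360343373774980333593, 157634475900265487730386023714868925540199492719112460544904263175430486354919280966848448757332427673536383911123772566625506090549535412009737908730659977782076338735785090280329032948229134429098090081384206868097774133832259797381652869914519963697277476638550934982813434241102890220636797461862501059317427664592217290609172960953015196297238720803665356350757942726054842004390447325649513631469248441523009326183144693821850121067449114624000⟩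
theorem sh_6_5_2_t_chk : sh_6_5_2_t.chk = true := by decide +kernel
end Vale.Agent.Lib.P038.SatK
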